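import Vale.Agent.Lib.P043Period

namespace Vale.Agent.Results.P043.ProjectionSingleton

/-- Let `F` be a finite tile of `ℤ^d` such that for every pair of linearly independent homomorphisms
`ψ₁ ψ₂ : ℤ^d → ℤ` some point of `F` is the only point of `F` with its value of `(ψ₁, ψ₂)`.
Then `F` has a periodic tiling: a tiling `A'` invariant under the rank `d` sublattice `N • ℤ^d`.
For `d ≤ 2` the hypothesis on the projections always holds. -/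
theorem result {d : ℕ} (F : Finset (Fin d → ℤ)) (A : Set (Fin d → ℤ))
    (htile : ∀ x : Fin d → ℤ,
      ∃! q : (Fin d → ℤ) × (Fin d → ℤ), q.1 ∈ A ∧ q.2 ∈ F ∧ q.1 + q.2 = x)
    (hproj : ∀ ψ₁ ψ₂ : (Fin d → ℤ) →+ ℤ, (∀ a b : ℤ, a • ψ₁ + b • ψ₂ = 0 → a = 0 ∧ b = 0) →
      ∃ f ∈ F, ∀ g ∈ F, ψ₁ g = ψ₁ f → ψ₂ g = ψ₂ f → g = f) :
    ∃ (A' : Set (Fin d → ℤ)) (N : ℕ), 0 < N ∧
      (∀ x : Fin d → ℤ,
        ∃! q : (Fin d → ℤ) × (Fin d → ℤ), q.1 ∈ A' ∧ q.2 ∈ F ∧ q.1 + q.2 = x) ∧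
      ∀ (x : Fin d → ℤ) (i : Fin d), x ∈ A' ↔ x + N • (Pi.single i 1 : Fin d → ℤ) ∈ A' :=
  Vale.Agent.P043.exists_periodic_tiling F A htile hproj

end Vale.Agent.Results.P043.ProjectionSingleton
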