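import Vale.Agent.Lib.P043Tiling

namespace Vale.Agent.Results.P043.SingletonFibre

/-- Every tiling of the lattice by a finite tile is periodic (invariant under the rank `d`
sublattice `N • ℤ^d`), as soon as every nonzero homomorphism to the integers takes some value at
exactly one point of the tile. -/
theorem result {d : ℕ} (F : Finset (Fin d → ℤ)) (A : Set (Fin d → ℤ))
    (htile : ∀ x : Fin d → ℤ,
      ∃! q : (Fin d → ℤ) × (Fin d → ℤ), q.1 ∈ A ∧ q.2 ∈ F ∧ q.1 + q.2 = x)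
    (hfibre : ∀ ψ : (Fin d → ℤ) →+ ℤ, ψ ≠ 0 → ∃ f ∈ F, ∀ g ∈ F, ψ g = ψ f → g = f) :
    ∃ N : ℕ, 0 < N ∧ ∀ (x : Fin d → ℤ) (i : Fin d),
      x ∈ A ↔ x + N • (Pi.single i 1 : Fin d → ℤ) ∈ A :=
  Vale.Agent.P043.main F A htile hfibre

end Vale.Agent.Results.P043.SingletonFibre
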