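import Vale.Agent.P043Six.Reduce

open Vale.Agent.P043Six

/-- Every translational tile with six elements of `ℤ^d`, for every dimension `d`, admits a
periodic tiling: from any tiling one obtains a tiling invariant under the lattice `N ℤ^d`. -/
theorem Vale.Agent.Results.P043.TilesOfSizeSix.result (d : ℕ) (F : Finset (Fin d → ℤ))
    (hF : F.card = 6)
    (h : ∃ A : Set (Fin d → ℤ), ∀ x : Fin d → ℤ,
      ∃! p : (Fin d → ℤ) × (Fin d → ℤ), p.1 ∈ A ∧ p.2 ∈ F ∧ p.1 + p.2 = x) :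
    ∃ (A' : Set (Fin d → ℤ)) (N : ℕ), 0 < N ∧
      (∀ x : Fin d → ℤ,
        ∃! p : (Fin d → ℤ) × (Fin d → ℤ), p.1 ∈ A' ∧ p.2 ∈ F ∧ p.1 + p.2 = x) ∧
      ∀ a y : Fin d → ℤ, a ∈ A' ↔ a + N • y ∈ A' := by
  classical
  obtain ⟨A, hA⟩ := h
  have hG : AddGroup.FG (Fin d → ℤ) := Module.Finite.iff_addGroup_fg.mp inferInstance
  have hcount : CountOne A F 1 := by
    intro x
    obtain ⟨p, ⟨hp₁, hp₂, hp₃⟩, hu⟩ := hA x
    rw [Finset.card_eq_one]
    refine ⟨p.2, ?_⟩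
    ext g
    simp only [Finset.mem_filter, Finset.mem_singleton, one_smul]
    constructor
    · rintro ⟨hg, hx⟩
      have := hu (x - g, g) ⟨hx, hg, by simp⟩
      rw [← this]
    · rintro rfl
      refine ⟨hp₂, ?_⟩
      rw [← hp₃, add_sub_cancel_right]
      exact hp₁
  obtain ⟨A', hA', N, hN, hper⟩ := perTile_of_tile hG hF hcount
  refine ⟨A', N, hN, fun x => ?_, fun a y => ?_⟩
  · have h1 := hA' x
    rw [Finset.card_eq_one] at h1
    obtain ⟨f, hf⟩ := h1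
    have hmem : ∀ g, (g ∈ F ∧ x - (1 : ℕ) • g ∈ A') ↔ g = f := by
      intro g
      rw [← Finset.mem_singleton, ← hf, Finset.mem_filter]
    have h2 := (hmem f).mpr rfl
    rw [one_smul] at h2
    refine ⟨(x - f, f), ⟨h2.2, h2.1, by simp⟩, ?_⟩
    rintro ⟨q₁, q₂⟩ ⟨h₁, h₂, h₃⟩
    simp only at h₁ h₂ h₃
    have h4 : q₂ = f := (hmem q₂).mp ⟨h₂, by rw [one_smul, ← h₃, add_sub_cancel_right]; exact h₁⟩
    subst h4
    have h5 : q₁ = x - q₂ := by
      rw [← h₃, add_sub_cancel_right]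
    rw [h5]
  · exact (mem_iff_of_ind_eq (hper y a)).symm

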